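import Mathlib

namespace Vale.Agent.P358h5
open Finset BigOperators Matrix
open scoped ComplexConjugate

noncomputable section

/-- Basis labels of `n` qubits. -/
abbrev Qb (n : ℕ) := Fin n → Fin 2

/-- The generalized amplitude-damping channel `𝒜_{γ,ν}` on arbitrary `2 × 2` complex matrices:
the linear extension of the formula
`(1-q, z; z̄, q) ↦ (1-t, √(1-γ) z; √(1-γ) z̄, t)`, `t = (1-γ) q + γ ν` of the problem file. -/
def gadc (γ ν : ℝ) (X : Matrix (Fin 2) (Fin 2) ℂ) : Matrix (Fin 2) (Fin 2) ℂ :=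
  !![X 0 0 + X 1 1 - (((1 - γ : ℝ) : ℂ) * X 1 1 + ((γ * ν : ℝ) : ℂ) * (X 0 0 + X 1 1)),
      ((Real.sqrt (1 - γ) : ℝ) : ℂ) * X 0 1;
     ((Real.sqrt (1 - γ) : ℝ) : ℂ) * X 1 0,
      ((1 - γ : ℝ) : ℂ) * X 1 1 + ((γ * ν : ℝ) : ℂ) * (X 0 0 + X 1 1)]

/-- The entries of `𝒜_{γ,ν}` in the matrix-unit basis: `⟨x|𝒜(|a⟩⟨b|)|y⟩`. -/
def coef (γ ν : ℝ) (x y a b : Fin 2) : ℂ := gadc γ ν (Matrix.single a b 1) x y

/-- The tensor power `𝒜_{γ,ν}^{⊗ n}` on matrices indexed by `n`-qubit basis labels: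
`⟨x|𝒜^{⊗n}(X)|y⟩ = ∑_{a,b} ∏_i ⟨x_i|𝒜(|a_i⟩⟨b_i|)|y_i⟩ X_{a,b}`. -/
def gadcN (γ ν : ℝ) (n : ℕ) (X : Matrix (Qb n) (Qb n) ℂ) : Matrix (Qb n) (Qb n) ℂ :=
  Matrix.of fun x y => ∑ a : Qb n, ∑ b : Qb n, (∏ i, coef γ ν (x i) (y i) (a i) (b i)) * X a b

/-- The von Neumann entropy in bits of a Hermitian matrix (sum of `-λ log₂ λ` over its
eigenvalues; value `0` on non-Hermitian matrices, which never occur below). -/
def vnEntropy {m : Type*} [Fintype m] [DecidableEq m] (ρ : Matrix m m ℂ) : ℝ :=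
  if h : ρ.IsHermitian then ∑ i, Real.negMulLog (h.eigenvalues i) / Real.log 2 else 0

/-- The Holevo quantity in bits of the ensemble `{p a, 𝒜^{⊗n}(ρ a)}`. -/
def holevoN (γ ν : ℝ) (n : ℕ) {ι : Type*} [Fintype ι] (p : ι → ℝ)
    (ρ : ι → Matrix (Qb n) (Qb n) ℂ) : ℝ :=
  vnEntropy (∑ a, ((p a : ℝ) : ℂ) • gadcN γ ν n (ρ a)) -
    ∑ a, p a * vnEntropy (gadcN γ ν n (ρ a))

/-- `W γ ν s q = Tr[ω^{-1/2} 𝒜(φ) ω^{-1/2} 𝒜(φ)]` for a pure qubit state `φ` with excited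
population `q`, where `ω = diag(1-s, s)`; it is the exponential of the sandwiched Rényi-2
divergence of `𝒜(φ)` from `ω`. -/
def W (γ ν s q : ℝ) : ℝ :=
  (1 - ((1 - γ) * q + γ * ν)) ^ 2 / (1 - s) + ((1 - γ) * q + γ * ν) ^ 2 / s +
    2 * ((1 - γ) * (q * (1 - q))) / Real.sqrt (s * (1 - s))

end

end Vale.Agent.P358h5
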