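import Mathlib

namespace Vale.Agent.P358h5
open Finset BigOperators
open scoped ComplexConjugate

section Gram
variable {ι κ : Type*} [Fintype ι] [Fintype κ]

lemma sum4_comm {α : Type*} [AddCommMonoid α] (F : κ → κ → ι → ι → α) :
    ∑ x, ∑ y, ∑ J, ∑ J', F x y J J' = ∑ J, ∑ J', ∑ x, ∑ y, F x y J J' := by
  calc ∑ x, ∑ y, ∑ J, ∑ J', F x y J J'
      = ∑ x, ∑ J, ∑ y, ∑ J', F x y J J' := by
        refine Finset.sum_congr rfl fun x _ => ?_
        rw [Finset.sum_comm]
    _ = ∑ J, ∑ x, ∑ y, ∑ J', F x y J J' := by rw [Finset.sum_comm]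
    _ = ∑ J, ∑ x, ∑ J', ∑ y, F x y J J' := by
        refine Finset.sum_congr rfl fun J _ => Finset.sum_congr rfl fun x _ => ?_
        rw [Finset.sum_comm]
    _ = ∑ J, ∑ J', ∑ x, ∑ y, F x y J J' := by
        refine Finset.sum_congr rfl fun J _ => ?_
        rw [Finset.sum_comm]

/-- Expansion of the weighted Hilbert-Schmidt norm of `∑ |a_J⟩⟨b_J|`. -/
lemma gram_expand (a b : ι → κ → ℂ) (w : κ → ℝ) :
    ((∑ x, ∑ y, w x * w y * Complex.normSq (∑ J, a J x * conj (b J y)) : ℝ) : ℂ) =
      ∑ J, ∑ J', (∑ x, (w x : ℂ) * (a J x * conj (a J' x))) *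
        conj (∑ y, (w y : ℂ) * (b J y * conj (b J' y))) := by
  have h1 : ∀ x y, ((w x * w y * Complex.normSq (∑ J, a J x * conj (b J y)) : ℝ) : ℂ) =
      ∑ J, ∑ J', ((w x : ℂ) * (a J x * conj (a J' x))) *
        ((w y : ℂ) * (conj (b J y) * b J' y)) := by
    intro x y
    push_cast
    rw [← Complex.mul_conj, map_sum, Finset.sum_mul_sum, Finset.mul_sum]
    refine Finset.sum_congr rfl fun J _ => ?_
    rw [Finset.mul_sum]
    refine Finset.sum_congr rfl fun J' _ => ?_
    simp only [map_mul, Complex.conj_conj]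
    ring
  push_cast at h1 ⊢
  calc ∑ x, ∑ y, (w x : ℂ) * (w y : ℂ) * (Complex.normSq (∑ J, a J x * conj (b J y)) : ℂ)
      = ∑ x, ∑ y, ∑ J, ∑ J', ((w x : ℂ) * (a J x * conj (a J' x))) *
        ((w y : ℂ) * (conj (b J y) * b J' y)) := by
        refine Finset.sum_congr rfl fun x _ => Finset.sum_congr rfl fun y _ => ?_
        exact h1 x y
    _ = ∑ J, ∑ J', ∑ x, ∑ y, ((w x : ℂ) * (a J x * conj (a J' x))) *
        ((w y : ℂ) * (conj (b J y) * b J' y)) := sum4_comm _
    _ = _ := by
        refine Finset.sum_congr rfl fun J _ => Finset.sum_congr rfl fun J' _ => ?_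
        rw [map_sum, Finset.sum_mul_sum]
        refine Finset.sum_congr rfl fun x _ => Finset.sum_congr rfl fun y _ => ?_
        simp only [map_mul, Complex.conj_ofReal, Complex.conj_conj]

/-- The Gram identity. -/
lemma gram_self (a : ι → κ → ℂ) (w : κ → ℝ) :
    (∑ x, ∑ y, w x * w y * Complex.normSq (∑ J, a J x * conj (a J y))) =
      ∑ J, ∑ J', Complex.normSq (∑ x, (w x : ℂ) * (a J x * conj (a J' x))) := by
  apply Complex.ofReal_injective
  rw [gram_expand a a w]
  push_cast
  refine Finset.sum_congr rfl fun J _ => Finset.sum_congr rfl fun J' _ => ?_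
  rw [← Complex.mul_conj]

/-- Cauchy-Schwarz for the weighted Hilbert-Schmidt norm of `∑ |a_J⟩⟨b_J|`. -/
lemma gram_cs (a b : ι → κ → ℂ) (w : κ → ℝ) (hw : ∀ x, 0 ≤ w x) :
    (∑ x, ∑ y, w x * w y * Complex.normSq (∑ J, a J x * conj (b J y))) ≤
      Real.sqrt (∑ x, ∑ y, w x * w y * Complex.normSq (∑ J, a J x * conj (a J y))) *
      Real.sqrt (∑ x, ∑ y, w x * w y * Complex.normSq (∑ J, b J x * conj (b J y))) := by
  classical
  set Ga : ι × ι → ℂ := fun P => ∑ x, (w x : ℂ) * (a P.1 x * conj (a P.2 x)) with hGa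
  set Gb : ι × ι → ℂ := fun P => ∑ x, (w x : ℂ) * (b P.1 x * conj (b P.2 x)) with hGb
  have hL : 0 ≤ ∑ x, ∑ y, w x * w y * Complex.normSq (∑ J, a J x * conj (b J y)) :=
    Finset.sum_nonneg fun x _ => Finset.sum_nonneg fun y _ =>
      mul_nonneg (mul_nonneg (hw x) (hw y)) (Complex.normSq_nonneg _)
  have hE := gram_expand a b w
  have h1 : (∑ x, ∑ y, w x * w y * Complex.normSq (∑ J, a J x * conj (b J y)))
      ≤ ∑ P : ι × ι, ‖Ga P‖ * ‖Gb P‖ := by
    have h2 : ‖((∑ x, ∑ y, w x * w y * Complex.normSq (∑ J, a J x * conj (b J y)) : ℝ) : ℂ)‖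
        = ∑ x, ∑ y, w x * w y * Complex.normSq (∑ J, a J x * conj (b J y)) := by
      rw [Complex.norm_real, Real.norm_eq_abs, abs_of_nonneg hL]
    rw [← h2, hE, Fintype.sum_prod_type]
    refine (norm_sum_le _ _).trans (Finset.sum_le_sum fun J _ => ?_)
    refine (norm_sum_le _ _).trans (Finset.sum_le_sum fun J' _ => ?_)
    simp only [hGa, hGb, norm_mul, Complex.norm_conj]
    exact le_refl _
  refine h1.trans ?_
  have h3 := Real.sum_mul_le_sqrt_mul_sqrt (Finset.univ : Finset (ι × ι))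
    (fun P => ‖Ga P‖) (fun P => ‖Gb P‖)
  refine h3.trans (le_of_eq ?_)
  have h4 : ∀ (c : ι → κ → ℂ),
      (∑ P : ι × ι, ‖∑ x, (w x : ℂ) * (c P.1 x * conj (c P.2 x))‖ ^ 2)
        = ∑ x, ∑ y, w x * w y * Complex.normSq (∑ J, c J x * conj (c J y)) := by
    intro c
    rw [gram_self c w, Fintype.sum_prod_type]
    refine Finset.sum_congr rfl fun J _ => Finset.sum_congr rfl fun J' _ => ?_
    rw [Complex.normSq_eq_norm_sq]
  rw [h4 a, h4 b]

end Gram

section Jensen

lemma log_sum_ge {ι : Type*} (t : Finset ι) (p f : ι → ℝ) (hp : ∀ i ∈ t, 0 ≤ p i)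
    (hs : ∑ i ∈ t, p i = 1) (hf : ∀ i ∈ t, 0 < f i) :
    ∑ i ∈ t, p i * Real.log (f i) ≤ Real.log (∑ i ∈ t, p i * f i) := by
  have h := (strictConcaveOn_log_Ioi.concaveOn).le_map_sum (t := t) (w := p) (p := f) hp hs
    (fun i hi => hf i hi)
  simpa [smul_eq_mul] using h

end Jensen

section Spectral
variable {ι κ : Type*} [Fintype ι] [Fintype κ]

/-- The key inequality: relative entropy to a diagonal state is below sandwiched Rényi-2,
written with weights `w = σ^{-1/2}`. -/
lemma renyi_bound (U : κ → ι → ℂ) (l : ι → ℝ) (hl : ∀ i, 0 ≤ l i) (hl1 : ∑ i, l i = 1)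
    (hcol : ∀ i, ∑ x, Complex.normSq (U x i) = 1)
    (w : κ → ℝ) (hw : ∀ x, 0 < w x) :
    (∑ i, l i * Real.log (l i)) + 2 * ∑ x, (∑ i, l i * Complex.normSq (U x i)) * Real.log (w x)
      ≤ Real.log (∑ x, ∑ y, w x * w y *
          Complex.normSq (∑ i, ((l i : ℝ) : ℂ) * U x i * conj (U y i))) := by
  classical
  -- Gram form
  set a : ι → κ → ℂ := fun i x => ((Real.sqrt (l i) : ℝ) : ℂ) * U x i with ha
  have hT : ∀ x y, ∑ i, ((l i : ℝ) : ℂ) * U x i * conj (U y i) = ∑ i, a i x * conj (a i y) := by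
    intro x y
    refine Finset.sum_congr rfl fun i _ => ?_
    have h2 : ((Real.sqrt (l i) : ℝ) : ℂ) * ((Real.sqrt (l i) : ℝ) : ℂ) = ((l i : ℝ) : ℂ) := by
      rw [← Complex.ofReal_mul, Real.mul_self_sqrt (hl i)]
    simp only [ha, map_mul, Complex.conj_ofReal]
    rw [← h2]
    ring
  simp only [hT]
  rw [gram_self a (fun x => w x)]
  -- the W's
  set W : ι → ℝ := fun i => ∑ x, w x * Complex.normSq (U x i) with hW
  have hWpos : ∀ i, 0 < W i := by
    intro i
    have hne : ∃ x, 0 < Complex.normSq (U x i) := by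
      by_contra hcon
      push Not at hcon
      have : ∑ x, Complex.normSq (U x i) ≤ 0 := Finset.sum_nonpos fun x _ => hcon x
      rw [hcol i] at this
      linarith
    obtain ⟨x, hx⟩ := hne
    refine Finset.sum_pos' (fun y _ => mul_nonneg (hw y).le (Complex.normSq_nonneg _)) ⟨x, Finset.mem_univ _, mul_pos (hw x) hx⟩
  -- diagonal entries of the Gram matrix
  have hG : ∀ i, Complex.normSq (∑ x, ((w x : ℝ) : ℂ) * (a i x * conj (a i x))) = (l i * W i) ^ 2 := by
    intro i
    have h3 : ∑ x, ((w x : ℝ) : ℂ) * (a i x * conj (a i x)) = ((l i * W i : ℝ) : ℂ) := by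
      simp only [hW, Finset.mul_sum]
      push_cast
      refine Finset.sum_congr rfl fun x _ => ?_
      rw [Complex.mul_conj]
      simp only [ha]
      rw [Complex.normSq_mul, Complex.normSq_ofReal, Real.mul_self_sqrt (hl i)]
      push_cast
      ring
    rw [h3, Complex.normSq_ofReal]
    ring
  have hge : ∑ i, (l i * W i) ^ 2 ≤
      ∑ J, ∑ J', Complex.normSq (∑ x, ((w x : ℝ) : ℂ) * (a J x * conj (a J' x))) := by
    refine Finset.sum_le_sum fun J _ => ?_
    rw [← hG J]
    exact Finset.single_le_sum (f := fun J' => Complex.normSq (∑ x, ((w x : ℝ) : ℂ) * (a J x * conj (a J' x))))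
      (fun J' _ => Complex.normSq_nonneg _) (Finset.mem_univ J)
  -- support
  set t : Finset ι := Finset.univ.filter fun i => 0 < l i with ht
  have hts : ∑ i ∈ t, l i = 1 := by
    rw [← hl1, ht, Finset.sum_filter]
    refine Finset.sum_congr rfl fun i _ => ?_
    by_cases h : 0 < l i
    · simp [h]
    · have : l i = 0 := le_antisymm (not_lt.mp h) (hl i)
      simp [this]
  have hsum0 : ∀ (f : ι → ℝ), ∑ i ∈ t, l i * f i = ∑ i, l i * f i := by
    intro f
    rw [ht, Finset.sum_filter]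
    refine Finset.sum_congr rfl fun i _ => ?_
    by_cases h : 0 < l i
    · simp [h]
    · have : l i = 0 := le_antisymm (not_lt.mp h) (hl i)
      simp [this]
  have hA := log_sum_ge t l (fun i => l i * W i ^ 2) (fun i _ => hl i) hts
    (fun i hi => mul_pos (Finset.mem_filter.mp hi).2 (pow_pos (hWpos i) 2))
  have hsumpos : 0 < ∑ i ∈ t, l i * (l i * W i ^ 2) := by
    have hne : t.Nonempty := by
      by_contra hcon
      rw [Finset.not_nonempty_iff_eq_empty] at hcon
      rw [hcon] at hts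
      simp at hts
    refine Finset.sum_pos (fun i hi => ?_) hne
    have := (Finset.mem_filter.mp hi).2
    exact mul_pos this (mul_pos this (pow_pos (hWpos i) 2))
  have hle : ∑ i ∈ t, l i * (l i * W i ^ 2) ≤
      ∑ J, ∑ J', Complex.normSq (∑ x, ((w x : ℝ) : ℂ) * (a J x * conj (a J' x))) := by
    refine le_trans ?_ hge
    rw [hsum0]
    refine le_of_eq (Finset.sum_congr rfl fun i _ => ?_)
    ring
  refine le_trans ?_ (Real.log_le_log hsumpos hle)
  refine le_trans ?_ hA
  -- now the second Jensen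
  have hB : ∀ i, ∑ x, Complex.normSq (U x i) * Real.log (w x) ≤ Real.log (W i) := by
    intro i
    have := log_sum_ge Finset.univ (fun x => Complex.normSq (U x i)) w
      (fun x _ => Complex.normSq_nonneg _) (hcol i) (fun x _ => hw x)
    refine this.trans (le_of_eq ?_)
    simp only [hW]
    congr 1
    exact Finset.sum_congr rfl fun x _ => by ring
  rw [hsum0]
  have hexp : (∑ i, l i * Real.log (l i)) + 2 * ∑ x, (∑ i, l i * Complex.normSq (U x i)) * Real.log (w x)
      = ∑ i, l i * (Real.log (l i) + 2 * ∑ x, Complex.normSq (U x i) * Real.log (w x)) := by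
    have h5 : ∑ x, (∑ i, l i * Complex.normSq (U x i)) * Real.log (w x)
        = ∑ i, l i * ∑ x, Complex.normSq (U x i) * Real.log (w x) := by
      simp only [Finset.sum_mul, Finset.mul_sum]
      rw [Finset.sum_comm]
      exact Finset.sum_congr rfl fun i _ => Finset.sum_congr rfl fun x _ => by ring
    rw [h5, Finset.mul_sum, ← Finset.sum_add_distrib]
    exact Finset.sum_congr rfl fun i _ => by ring
  rw [hexp]
  refine Finset.sum_le_sum fun i _ => ?_
  by_cases hi : 0 < l i
  · refine mul_le_mul_of_nonneg_left ?_ (hl i)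
    rw [Real.log_mul hi.ne' (pow_pos (hWpos i) 2).ne', Real.log_pow]
    have := hB i
    push_cast
    linarith
  · have : l i = 0 := le_antisymm (not_lt.mp hi) (hl i)
    simp [this]

/-- Klein's inequality against a diagonal reference state. -/
lemma klein_bound (U : κ → ι → ℂ) (l : ι → ℝ) (hl : ∀ i, 0 ≤ l i) (hl1 : ∑ i, l i = 1)
    (hcol : ∀ i, ∑ x, Complex.normSq (U x i) = 1)
    (hrow : ∀ x, ∑ i, Complex.normSq (U x i) = 1)
    (σ : κ → ℝ) (hσ : ∀ x, 0 < σ x) (hσ1 : ∑ x, σ x = 1) :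
    ∑ x, (∑ i, l i * Complex.normSq (U x i)) * Real.log (σ x) ≤ ∑ i, l i * Real.log (l i) := by
  have h1 : ∀ i, l i * ∑ x, Complex.normSq (U x i) * Real.log (σ x) - l i * Real.log (l i)
      ≤ (∑ x, Complex.normSq (U x i) * σ x) - l i := by
    intro i
    by_cases hi : 0 < l i
    · have h2 : ∀ x, l i * (Complex.normSq (U x i) * Real.log (σ x)) - Complex.normSq (U x i) * l i * Real.log (l i)
          ≤ Complex.normSq (U x i) * σ x - Complex.normSq (U x i) * l i := by
        intro x
        have h3 := Real.log_le_sub_one_of_pos (div_pos (hσ x) hi)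
        rw [Real.log_div (hσ x).ne' hi.ne'] at h3
        have h4 : 0 ≤ Complex.normSq (U x i) * l i :=
          mul_nonneg (Complex.normSq_nonneg _) hi.le
        have h5 := mul_le_mul_of_nonneg_left h3 h4
        have h6 : Complex.normSq (U x i) * l i * (σ x / l i - 1) =
            Complex.normSq (U x i) * σ x - Complex.normSq (U x i) * l i := by
          field_simp
        rw [h6] at h5
        nlinarith [h5]
      have h7 := Finset.sum_le_sum fun x (_ : x ∈ Finset.univ) => h2 x
      rw [Finset.sum_sub_distrib, Finset.sum_sub_distrib, ← Finset.mul_sum, ← Finset.sum_mul,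
        ← Finset.sum_mul, hcol i] at h7
      linarith
    · have h0 : l i = 0 := le_antisymm (not_lt.mp hi) (hl i)
      rw [h0]
      simp only [zero_mul, sub_zero]
      exact Finset.sum_nonneg fun x _ => mul_nonneg (Complex.normSq_nonneg _) (hσ x).le
  have h8 := Finset.sum_le_sum fun i (_ : i ∈ Finset.univ) => h1 i
  rw [Finset.sum_sub_distrib, Finset.sum_sub_distrib, hl1] at h8
  have h9 : ∑ i, ∑ x, Complex.normSq (U x i) * σ x = 1 := by
    rw [Finset.sum_comm, ← hσ1]
    refine Finset.sum_congr rfl fun x _ => ?_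
    rw [← Finset.sum_mul, hrow x, one_mul]
  rw [h9] at h8
  have h5 : ∑ x, (∑ i, l i * Complex.normSq (U x i)) * Real.log (σ x)
      = ∑ i, l i * ∑ x, Complex.normSq (U x i) * Real.log (σ x) := by
    simp only [Finset.sum_mul, Finset.mul_sum]
    rw [Finset.sum_comm]
    exact Finset.sum_congr rfl fun i _ => Finset.sum_congr rfl fun x _ => by ring
  rw [h5]
  linarith

end Spectral

end Vale.Agent.P358h5
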