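import Mathlib
import Vale.Agent.P358h5.Defs
import Vale.Agent.P358h5.Gram

namespace Vale.Agent.P358h5
open Finset BigOperators Matrix
open scoped ComplexConjugate

noncomputable section

variable {γ ν : ℝ}

/-- Real Kraus operators of the channel. -/
def kr (γ ν : ℝ) : Fin 4 → Fin 2 → Fin 2 → ℝ :=
  ![fun x a => Real.sqrt (1 - ν) * (if x = 0 ∧ a = 0 then 1 else if x = 1 ∧ a = 1 then Real.sqrt (1 - γ) else 0),
    fun x a => Real.sqrt (1 - ν) * Real.sqrt γ * (if x = 0 ∧ a = 1 then 1 else 0),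
    fun x a => Real.sqrt ν * (if x = 0 ∧ a = 0 then Real.sqrt (1 - γ) else if x = 1 ∧ a = 1 then 1 else 0),
    fun x a => Real.sqrt ν * Real.sqrt γ * (if x = 1 ∧ a = 0 then 1 else 0)]

lemma coef_table (γ ν : ℝ) :
    coef γ ν 0 0 0 0 = ((1 - γ * ν : ℝ) : ℂ) ∧ coef γ ν 0 0 1 1 = ((γ * (1 - ν) : ℝ) : ℂ) ∧
    coef γ ν 1 1 0 0 = ((γ * ν : ℝ) : ℂ) ∧ coef γ ν 1 1 1 1 = ((1 - γ + γ * ν : ℝ) : ℂ) ∧
    coef γ ν 0 1 0 1 = ((Real.sqrt (1 - γ) : ℝ) : ℂ) ∧ coef γ ν 1 0 1 0 = ((Real.sqrt (1 - γ) : ℝ) : ℂ) ∧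
    coef γ ν 0 0 0 1 = 0 ∧ coef γ ν 0 0 1 0 = 0 ∧ coef γ ν 1 1 0 1 = 0 ∧ coef γ ν 1 1 1 0 = 0 ∧
    coef γ ν 0 1 0 0 = 0 ∧ coef γ ν 0 1 1 1 = 0 ∧ coef γ ν 0 1 1 0 = 0 ∧
    coef γ ν 1 0 0 0 = 0 ∧ coef γ ν 1 0 1 1 = 0 ∧ coef γ ν 1 0 0 1 = 0 := by
  refine ⟨?_, ?_, ?_, ?_, ?_, ?_, ?_, ?_, ?_, ?_, ?_, ?_, ?_, ?_, ?_, ?_⟩ <;>
  · simp [coef, gadc, Matrix.single]
    try (push_cast; ring)

lemma coef_eq_kraus (hγ0 : 0 ≤ γ) (hγ1 : γ ≤ 1) (hν0 : 0 ≤ ν) (hν1 : ν ≤ 1) (x y a b : Fin 2) :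
    coef γ ν x y a b = ((∑ j, kr γ ν j x a * kr γ ν j y b : ℝ) : ℂ) := by
  obtain ⟨h1, h2, h3, h4, h5, h6, h7, h8, h9, h10, h11, h12, h13, h14, h15, h16⟩ := coef_table γ ν
  have e1 : Real.sqrt (1 - ν) * Real.sqrt (1 - ν) = 1 - ν := Real.mul_self_sqrt (by linarith)
  have e2 : Real.sqrt ν * Real.sqrt ν = ν := Real.mul_self_sqrt hν0
  have e3 : Real.sqrt γ * Real.sqrt γ = γ := Real.mul_self_sqrt hγ0
  have e4 : Real.sqrt (1 - γ) * Real.sqrt (1 - γ) = 1 - γ := Real.mul_self_sqrt (by linarith)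
  fin_cases x <;> fin_cases y <;> fin_cases a <;> fin_cases b <;>
    simp only [Fin.zero_eta, Fin.mk_one, Fin.isValue, h1, h2, h3, h4, h5, h6, h7, h8, h9, h10, h11, h12, h13, h14, h15, h16] <;>
    norm_cast <;>
    simp [kr, Fin.sum_univ_four] <;>
    first
    | (nlinarith [e1, e2, e3, e4])
    | (have e5 : Real.sqrt (1 - ν) * Real.sqrt (1 - ν) * Real.sqrt (1 - γ) + Real.sqrt ν * Real.sqrt ν * Real.sqrt (1 - γ) = Real.sqrt (1 - γ) := by rw [e1, e2]; ring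
       nlinarith [e5])


/-- Kraus operators of the tensor power. -/
def KK (γ ν : ℝ) (n : ℕ) (J : Fin n → Fin 4) (x a : Qb n) : ℝ := ∏ i, kr γ ν (J i) (x i) (a i)

lemma prod_coef (hγ0 : 0 ≤ γ) (hγ1 : γ ≤ 1) (hν0 : 0 ≤ ν) (hν1 : ν ≤ 1) (n : ℕ) (x y a b : Qb n) :
    (∏ i, coef γ ν (x i) (y i) (a i) (b i)) =
      ((∑ J : Fin n → Fin 4, KK γ ν n J x a * KK γ ν n J y b : ℝ) : ℂ) := by
  have h1 : ∀ i, coef γ ν (x i) (y i) (a i) (b i) =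
      ((∑ j, kr γ ν j (x i) (a i) * kr γ ν j (y i) (b i) : ℝ) : ℂ) :=
    fun i => coef_eq_kraus hγ0 hγ1 hν0 hν1 _ _ _ _
  simp only [h1]
  rw [← Complex.ofReal_prod]
  congr 1
  rw [Finset.prod_univ_sum, Fintype.piFinset_univ]
  refine Finset.sum_congr rfl fun J _ => ?_
  simp only [KK]
  rw [Finset.prod_mul_distrib]

/-- The rank one matrix `|u⟩⟨v|`. -/
def rk {n : ℕ} (u v : Qb n → ℂ) : Matrix (Qb n) (Qb n) ℂ := Matrix.of fun a b => u a * conj (v b)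

/-- The amplitude `K_J u`. -/
def ampl (γ ν : ℝ) (n : ℕ) (u : Qb n → ℂ) (J : Fin n → Fin 4) (x : Qb n) : ℂ :=
  ∑ a, ((KK γ ν n J x a : ℝ) : ℂ) * u a

lemma gadcN_rk (hγ0 : 0 ≤ γ) (hγ1 : γ ≤ 1) (hν0 : 0 ≤ ν) (hν1 : ν ≤ 1) (n : ℕ) (u v : Qb n → ℂ)
    (x y : Qb n) :
    gadcN γ ν n (rk u v) x y = ∑ J, ampl γ ν n u J x * conj (ampl γ ν n v J y) := by
  simp only [gadcN, Matrix.of_apply, rk, prod_coef hγ0 hγ1 hν0 hν1]
  simp only [ampl, map_sum, map_mul, Complex.conj_ofReal]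
  push_cast
  simp only [Finset.sum_mul, Finset.mul_sum]
  -- Σ_a Σ_b Σ_J = Σ_J Σ_a Σ_b
  calc _ = ∑ a, ∑ J, ∑ b, (KK γ ν n J x a : ℂ) * (KK γ ν n J y b : ℂ) * (u a * conj (v b)) := by
        refine Finset.sum_congr rfl fun a _ => ?_
        rw [Finset.sum_comm]
    _ = ∑ J, ∑ a, ∑ b, (KK γ ν n J x a : ℂ) * (KK γ ν n J y b : ℂ) * (u a * conj (v b)) := by
        rw [Finset.sum_comm]
    _ = _ := by
        refine Finset.sum_congr rfl fun J _ => ?_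
        rw [Finset.sum_comm]
        refine Finset.sum_congr rfl fun a _ => Finset.sum_congr rfl fun b _ => ?_
        ring

/-- Reference state `ω = diag(1-s,s)`. -/
def om (s : ℝ) : Fin 2 → ℝ := ![1 - s, s]

/-- The product reference state. -/
def sg (s : ℝ) (n : ℕ) (x : Qb n) : ℝ := ∏ i, om s (x i)

/-- The weights `σ^{-1/2}`. -/
def wf (s : ℝ) (n : ℕ) (x : Qb n) : ℝ := (Real.sqrt (sg s n x))⁻¹

/-- The weighted Hilbert-Schmidt square `Tr[σ^{-1/2} X σ^{-1/2} X†]`. -/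
def nq (s : ℝ) (n : ℕ) (X : Matrix (Qb n) (Qb n) ℂ) : ℝ :=
  ∑ x, ∑ y, wf s n x * wf s n y * Complex.normSq (X x y)

lemma om_pos {s : ℝ} (hs0 : 0 < s) (hs1 : s < 1) (x : Fin 2) : 0 < om s x := by
  fin_cases x
  · simp [om]; linarith
  · simpa [om] using hs0

lemma sg_pos {s : ℝ} (hs0 : 0 < s) (hs1 : s < 1) (n : ℕ) (x : Qb n) : 0 < sg s n x :=
  Finset.prod_pos fun i _ => om_pos hs0 hs1 _

lemma wf_pos {s : ℝ} (hs0 : 0 < s) (hs1 : s < 1) (n : ℕ) (x : Qb n) : 0 < wf s n x :=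
  inv_pos.mpr (Real.sqrt_pos.mpr (sg_pos hs0 hs1 n x))

lemma nq_nonneg {s : ℝ} (hs0 : 0 < s) (hs1 : s < 1) (n : ℕ) (X : Matrix (Qb n) (Qb n) ℂ) :
    0 ≤ nq s n X :=
  Finset.sum_nonneg fun x _ => Finset.sum_nonneg fun y _ =>
    mul_nonneg (mul_nonneg (wf_pos hs0 hs1 n x).le (wf_pos hs0 hs1 n y).le) (Complex.normSq_nonneg _)

/-- Cauchy-Schwarz for the tensor power. -/
lemma nq_rk_cs (hγ0 : 0 ≤ γ) (hγ1 : γ ≤ 1) (hν0 : 0 ≤ ν) (hν1 : ν ≤ 1) {s : ℝ} (hs0 : 0 < s) (hs1 : s < 1)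
    (n : ℕ) (u v : Qb n → ℂ) :
    nq s n (gadcN γ ν n (rk u v)) ≤
      Real.sqrt (nq s n (gadcN γ ν n (rk u u))) * Real.sqrt (nq s n (gadcN γ ν n (rk v v))) := by
  simp only [nq, gadcN_rk hγ0 hγ1 hν0 hν1]
  exact gram_cs (fun J x => ampl γ ν n u J x) (fun J x => ampl γ ν n v J x) (wf s n)
    (fun x => (wf_pos hs0 hs1 n x).le)

/-- Triangle inequality for the weighted norm, for nonnegative coefficients. -/
lemma nq_add_le {s : ℝ} (hs0 : 0 < s) (hs1 : s < 1) (n : ℕ) (X Y : Matrix (Qb n) (Qb n) ℂ) :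
    nq s n (X + Y) ≤ (Real.sqrt (nq s n X) + Real.sqrt (nq s n Y)) ^ 2 := by
  classical
  have hwp := wf_pos hs0 hs1 n
  set c : Qb n × Qb n → ℝ := fun P => wf s n P.1 * wf s n P.2 with hc
  have hcn : ∀ P, 0 ≤ c P := fun P => mul_nonneg (hwp _).le (hwp _).le
  have e : ∀ Z : Matrix (Qb n) (Qb n) ℂ, nq s n Z = ∑ P : Qb n × Qb n, c P * Complex.normSq (Z P.1 P.2) := by
    intro Z
    simp only [nq, hc]
    rw [Fintype.sum_prod_type]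
  have h0X : 0 ≤ nq s n X := nq_nonneg hs0 hs1 n X
  have h0Y : 0 ≤ nq s n Y := nq_nonneg hs0 hs1 n Y
  have hcs : ∑ P : Qb n × Qb n, (Real.sqrt (c P) * ‖X P.1 P.2‖) * (Real.sqrt (c P) * ‖Y P.1 P.2‖) ≤
      Real.sqrt (nq s n X) * Real.sqrt (nq s n Y) := by
    refine (Real.sum_mul_le_sqrt_mul_sqrt _ _ _).trans (le_of_eq ?_)
    have h : ∀ Z : Matrix (Qb n) (Qb n) ℂ,
        ∑ P : Qb n × Qb n, (Real.sqrt (c P) * ‖Z P.1 P.2‖) ^ 2 = nq s n Z := by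
      intro Z
      rw [e Z]
      refine Finset.sum_congr rfl fun P _ => ?_
      rw [mul_pow, Real.sq_sqrt (hcn P), Complex.normSq_eq_norm_sq]
    rw [h X, h Y]
  have hpt : ∀ P : Qb n × Qb n, c P * Complex.normSq ((X + Y) P.1 P.2) ≤
      c P * Complex.normSq (X P.1 P.2) + c P * Complex.normSq (Y P.1 P.2) +
        2 * ((Real.sqrt (c P) * ‖X P.1 P.2‖) * (Real.sqrt (c P) * ‖Y P.1 P.2‖)) := by
    intro P
    have h1 : Complex.normSq ((X + Y) P.1 P.2) ≤ (‖X P.1 P.2‖ + ‖Y P.1 P.2‖) ^ 2 := by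
      rw [Complex.normSq_eq_norm_sq, Matrix.add_apply]
      exact pow_le_pow_left₀ (norm_nonneg _) (norm_add_le _ _) 2
    have h2 : (Real.sqrt (c P) * ‖X P.1 P.2‖) * (Real.sqrt (c P) * ‖Y P.1 P.2‖) =
        c P * (‖X P.1 P.2‖ * ‖Y P.1 P.2‖) := by
      calc _ = (Real.sqrt (c P) * Real.sqrt (c P)) * (‖X P.1 P.2‖ * ‖Y P.1 P.2‖) := by ring
        _ = _ := by rw [Real.mul_self_sqrt (hcn P)]
    have h3 := mul_le_mul_of_nonneg_left h1 (hcn P)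
    rw [h2]
    simp only [Complex.normSq_eq_norm_sq] at h3 ⊢
    have h4 : c P * (‖X P.1 P.2‖ + ‖Y P.1 P.2‖) ^ 2 = c P * ‖X P.1 P.2‖ ^ 2 + c P * ‖Y P.1 P.2‖ ^ 2 +
        2 * (c P * (‖X P.1 P.2‖ * ‖Y P.1 P.2‖)) := by ring
    linarith [h3, h4]
  have hsum := Finset.sum_le_sum fun P (_ : P ∈ Finset.univ) => hpt P
  rw [Finset.sum_add_distrib, Finset.sum_add_distrib, ← Finset.mul_sum, ← e, ← e, ← e] at hsum
  have hsx := Real.sq_sqrt h0X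
  have hsy := Real.sq_sqrt h0Y
  nlinarith [hsum, hcs, hsx, hsy]

lemma nq_smul {s : ℝ} (n : ℕ) (c : ℝ) (X : Matrix (Qb n) (Qb n) ℂ) :
    nq s n ((c : ℂ) • X) = c ^ 2 * nq s n X := by
  simp only [nq, Finset.mul_sum, Matrix.smul_apply, smul_eq_mul, Complex.normSq_mul, Complex.normSq_ofReal]
  refine Finset.sum_congr rfl fun x _ => Finset.sum_congr rfl fun y _ => ?_
  ring

/-- Triangle inequality with coefficients. -/
lemma nq_comb_le {s : ℝ} (hs0 : 0 < s) (hs1 : s < 1) (n : ℕ) (a b : ℝ) (ha : 0 ≤ a) (hb : 0 ≤ b)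
    (X Y : Matrix (Qb n) (Qb n) ℂ) :
    nq s n ((a : ℂ) • X + (b : ℂ) • Y) ≤
      (a * Real.sqrt (nq s n X) + b * Real.sqrt (nq s n Y)) ^ 2 := by
  refine (nq_add_le hs0 hs1 n _ _).trans ?_
  rw [nq_smul, nq_smul, Real.sqrt_mul (sq_nonneg a), Real.sqrt_mul (sq_nonneg b),
    Real.sqrt_sq ha, Real.sqrt_sq hb]

/-! ### Splitting off the first qubit -/

lemma sum_cons {α : Type*} [AddCommMonoid α] {n : ℕ} (f : Qb (n + 1) → α) :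
    ∑ a, f a = ∑ a₀ : Fin 2, ∑ a' : Qb n, f (Fin.cons a₀ a') := by
  rw [← (Fin.consEquiv (fun _ : Fin (n + 1) => Fin 2)).sum_comp, Fintype.sum_prod_type]
  rfl

lemma prod_cons_coef (n : ℕ) (x₀ y₀ a₀ b₀ : Fin 2) (x y a b : Qb n) :
    (∏ i, coef γ ν ((Fin.cons x₀ x : Qb (n + 1)) i) ((Fin.cons y₀ y : Qb (n + 1)) i)
        ((Fin.cons a₀ a : Qb (n + 1)) i) ((Fin.cons b₀ b : Qb (n + 1)) i)) =
      coef γ ν x₀ y₀ a₀ b₀ * ∏ i, coef γ ν (x i) (y i) (a i) (b i) := by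
  rw [Fin.prod_univ_succ]
  simp

lemma gadcN_succ (n : ℕ) (X : Matrix (Qb (n + 1)) (Qb (n + 1)) ℂ) (x₀ y₀ : Fin 2) (x y : Qb n) :
    gadcN γ ν (n + 1) X (Fin.cons x₀ x) (Fin.cons y₀ y) =
      ∑ a₀, ∑ b₀, coef γ ν x₀ y₀ a₀ b₀ *
        gadcN γ ν n (Matrix.of fun a b => X (Fin.cons a₀ a) (Fin.cons b₀ b)) x y := by
  simp only [gadcN, Matrix.of_apply]
  rw [sum_cons]
  refine Finset.sum_congr rfl fun a₀ _ => ?_
  simp_rw [sum_cons (n := n) (fun b : Qb (n + 1) => _)]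
  rw [Finset.sum_comm]
  refine Finset.sum_congr rfl fun b₀ _ => ?_
  rw [Finset.mul_sum]
  refine Finset.sum_congr rfl fun a _ => ?_
  rw [Finset.mul_sum]
  refine Finset.sum_congr rfl fun b _ => ?_
  rw [prod_cons_coef]
  ring

lemma wf_cons {s : ℝ} (hs0 : 0 < s) (hs1 : s < 1) (n : ℕ) (x₀ : Fin 2) (x : Qb n) :
    wf s (n + 1) (Fin.cons x₀ x) = (Real.sqrt (om s x₀))⁻¹ * wf s n x := by
  have h : sg s (n + 1) (Fin.cons x₀ x) = om s x₀ * sg s n x := by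
    simp only [sg]
    rw [Fin.prod_univ_succ]
    simp
  simp only [wf]
  rw [h, Real.sqrt_mul (om_pos hs0 hs1 x₀).le, mul_inv]

lemma nq_succ {s : ℝ} (hs0 : 0 < s) (hs1 : s < 1) (n : ℕ) (X : Matrix (Qb (n + 1)) (Qb (n + 1)) ℂ) :
    nq s (n + 1) X = ∑ x₀, ∑ y₀, (Real.sqrt (om s x₀))⁻¹ * (Real.sqrt (om s y₀))⁻¹ *
      nq s n (Matrix.of fun x y => X (Fin.cons x₀ x) (Fin.cons y₀ y)) := by
  simp only [nq]
  rw [sum_cons]
  refine Finset.sum_congr rfl fun x₀ _ => ?_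
  simp_rw [sum_cons (n := n) (fun y : Qb (n + 1) => _)]
  rw [Finset.sum_comm]
  refine Finset.sum_congr rfl fun y₀ _ => ?_
  rw [Finset.mul_sum]
  refine Finset.sum_congr rfl fun x _ => ?_
  rw [Finset.mul_sum]
  refine Finset.sum_congr rfl fun y _ => ?_
  rw [wf_cons hs0 hs1, wf_cons hs0 hs1]
  simp only [Matrix.of_apply]
  ring

end

end Vale.Agent.P358h5
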