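import Mathlib
import Vale.Agent.P358h5.Channel

namespace Vale.Agent.P358h5
open Finset BigOperators Matrix
open scoped ComplexConjugate

noncomputable section

variable {γ ν : ℝ}

lemma rk_block (n : ℕ) (ψ : Qb (n + 1) → ℂ) (a₀ b₀ : Fin 2) :
    (Matrix.of fun a b => rk ψ ψ (Fin.cons a₀ a) (Fin.cons b₀ b)) =
      rk (fun a => ψ (Fin.cons a₀ a)) (fun b => ψ (Fin.cons b₀ b)) := by
  ext a b
  simp [rk]

lemma W_nonneg (hγ1 : γ ≤ 1) {s q : ℝ} (hs0 : 0 < s) (hs1 : s < 1) (hq0 : 0 ≤ q) (hq1 : q ≤ 1) :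
    0 ≤ W γ ν s q := by
  unfold W
  have h1 : 0 ≤ 1 - s := by linarith
  have h2 : 0 ≤ (1 - γ) * (q * (1 - q)) :=
    mul_nonneg (by linarith) (mul_nonneg hq0 (by linarith))
  positivity

/-- The numerical inequality. -/
lemma F_le {s M : ℝ} (hM : ∀ q, 0 ≤ q → q ≤ 1 → W γ ν s q ≤ M) (x y : ℝ)
    (hx : 0 ≤ x) (hy : 0 ≤ y) :
    ((1 - γ * ν) * x + γ * (1 - ν) * y) ^ 2 / (1 - s) + (γ * ν * x + (1 - γ + γ * ν) * y) ^ 2 / s +
      2 * ((1 - γ) * (x * y)) / Real.sqrt (s * (1 - s)) ≤ M * (x + y) ^ 2 := by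
  rcases eq_or_lt_of_le (add_nonneg hx hy) with h0 | hpos
  · have hx0 : x = 0 := by linarith
    have hy0 : y = 0 := by linarith
    simp [hx0, hy0]
  · set q := y / (x + y) with hq
    have hq0 : 0 ≤ q := div_nonneg hy hpos.le
    have hq1 : q ≤ 1 := by
      rw [hq, div_le_one hpos]
      linarith
    have hqy : q * (x + y) = y := by
      rw [hq]
      field_simp
    have hqx : (1 - q) * (x + y) = x := by linarith
    have e1 : (1 - ((1 - γ) * q + γ * ν)) * (x + y) = (1 - γ * ν) * x + γ * (1 - ν) * y := by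
      linear_combination (-(1 - γ)) * hqy
    have e2 : ((1 - γ) * q + γ * ν) * (x + y) = γ * ν * x + (1 - γ + γ * ν) * y := by
      linear_combination (1 - γ) * hqy
    have e3 : q * (1 - q) * (x + y) ^ 2 = x * y := by
      calc q * (1 - q) * (x + y) ^ 2 = (q * (x + y)) * ((1 - q) * (x + y)) := by ring
        _ = _ := by rw [hqy, hqx]; ring
    have h := mul_le_mul_of_nonneg_right (hM q hq0 hq1) (sq_nonneg (x + y))
    refine le_trans (le_of_eq ?_) h
    unfold W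
    rw [← e1, ← e2, ← e3]
    ring

/-- Multiplicativity of the weighted 2-norm on rank one inputs. -/
theorem mult_rank_one (hγ0 : 0 ≤ γ) (hγ1 : γ ≤ 1) (hν0 : 0 ≤ ν) (hν1 : ν ≤ 1) {s M : ℝ}
    (hs0 : 0 < s) (hs1 : s < 1) (hM : ∀ q, 0 ≤ q → q ≤ 1 → W γ ν s q ≤ M) (n : ℕ) :
    ∀ ψ : Qb n → ℂ, nq s n (gadcN γ ν n (rk ψ ψ)) ≤ M ^ n * (∑ a, Complex.normSq (ψ a)) ^ 2 := by
  have hM0 : 0 ≤ M := (W_nonneg (ν := ν) hγ1 hs0 hs1 le_rfl zero_le_one).trans (hM 0 le_rfl zero_le_one)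
  induction n with
  | zero =>
    intro ψ
    have hx : ∀ x : Qb 0, x = default := fun x => Subsingleton.elim _ _
    simp only [nq, wf, sg, gadcN, Matrix.of_apply, rk]
    simp [Fintype.sum_unique]
    apply le_of_eq
    ring
  | succ n ih =>
    intro ψ
    obtain ⟨h1, h2, h3, h4, h5, h6, h7, h8, h9, h10, h11, h12, h13, h14, h15, h16⟩ := coef_table γ ν
    set u : Qb n → ℂ := fun a => ψ (Fin.cons 0 a) with hu
    set v : Qb n → ℂ := fun a => ψ (Fin.cons 1 a) with hv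
    set β := Real.sqrt (1 - γ) with hβ
    have hβ0 : 0 ≤ β := Real.sqrt_nonneg _
    have hβ2 : β ^ 2 = 1 - γ := Real.sq_sqrt (by linarith)
    have hblock : ∀ x₀ y₀ : Fin 2, (Matrix.of fun x y =>
        gadcN γ ν (n + 1) (rk ψ ψ) (Fin.cons x₀ x) (Fin.cons y₀ y)) =
        coef γ ν x₀ y₀ 0 0 • gadcN γ ν n (rk u u) + coef γ ν x₀ y₀ 0 1 • gadcN γ ν n (rk u v)
        + coef γ ν x₀ y₀ 1 0 • gadcN γ ν n (rk v u) + coef γ ν x₀ y₀ 1 1 • gadcN γ ν n (rk v v) := by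
      intro x₀ y₀
      ext x y
      simp only [Matrix.of_apply, gadcN_succ, rk_block, Fin.sum_univ_two, Matrix.add_apply,
        Matrix.smul_apply, smul_eq_mul]
      ring
    have b00 := hblock 0 0
    have b01 := hblock 0 1
    have b10 := hblock 1 0
    have b11 := hblock 1 1
    simp only [h1, h2, h7, h8, zero_smul, add_zero] at b00
    simp only [h5, h11, h12, h13, zero_smul, add_zero, zero_add] at b01
    simp only [h6, h14, h15, h16, zero_smul, add_zero, zero_add] at b10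
    simp only [h3, h4, h9, h10, zero_smul, add_zero] at b11
    rw [nq_succ hs0 hs1, Fin.sum_univ_two, Fin.sum_univ_two, Fin.sum_univ_two, b00, b01, b10, b11]
    set x := Real.sqrt (nq s n (gadcN γ ν n (rk u u))) with hx
    set y := Real.sqrt (nq s n (gadcN γ ν n (rk v v))) with hy
    have hx0 : 0 ≤ x := Real.sqrt_nonneg _
    have hy0 : 0 ≤ y := Real.sqrt_nonneg _
    have n00 := nq_comb_le hs0 hs1 n (1 - γ * ν) (γ * (1 - ν))
      (by nlinarith) (mul_nonneg hγ0 (by linarith)) (gadcN γ ν n (rk u u)) (gadcN γ ν n (rk v v))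
    have n11 := nq_comb_le hs0 hs1 n (γ * ν) (1 - γ + γ * ν)
      (mul_nonneg hγ0 hν0) (by nlinarith [mul_nonneg hγ0 hν0]) (gadcN γ ν n (rk u u)) (gadcN γ ν n (rk v v))
    have n01 := nq_rk_cs hγ0 hγ1 hν0 hν1 hs0 hs1 n u v
    have n10 := nq_rk_cs hγ0 hγ1 hν0 hν1 hs0 hs1 n v u
    have s01 : nq s n (((β : ℝ) : ℂ) • gadcN γ ν n (rk u v)) ≤ (1 - γ) * (x * y) := by
      rw [nq_smul, hβ2]
      exact mul_le_mul_of_nonneg_left n01 (by linarith)
    have s10 : nq s n (((β : ℝ) : ℂ) • gadcN γ ν n (rk v u)) ≤ (1 - γ) * (x * y) := by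
      rw [nq_smul, hβ2]
      refine mul_le_mul_of_nonneg_left (n10.trans (le_of_eq ?_)) (by linarith)
      ring
    have w0 : (Real.sqrt (om s 0))⁻¹ * (Real.sqrt (om s 0))⁻¹ = 1 / (1 - s) := by
      have : om s 0 = 1 - s := rfl
      rw [this, ← mul_inv, Real.mul_self_sqrt (by linarith), one_div]
    have w1 : (Real.sqrt (om s 1))⁻¹ * (Real.sqrt (om s 1))⁻¹ = 1 / s := by
      have : om s 1 = s := rfl
      rw [this, ← mul_inv, Real.mul_self_sqrt hs0.le, one_div]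
    have w01 : (Real.sqrt (om s 0))⁻¹ * (Real.sqrt (om s 1))⁻¹ = 1 / Real.sqrt (s * (1 - s)) := by
      have e0 : om s 0 = 1 - s := rfl
      have e1 : om s 1 = s := rfl
      rw [e0, e1, Real.sqrt_mul hs0.le, one_div, mul_inv, mul_comm]
    have w10 : (Real.sqrt (om s 1))⁻¹ * (Real.sqrt (om s 0))⁻¹ = 1 / Real.sqrt (s * (1 - s)) := by
      rw [mul_comm, w01]
    rw [w0, w1, w01, w10]
    have hsq : 0 ≤ 1 / Real.sqrt (s * (1 - s)) := by positivity
    have hs10 : 0 < 1 - s := by linarith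
    have bound := F_le hM x y hx0 hy0
    have t1 : 1 / (1 - s) * nq s n (((1 - γ * ν : ℝ) : ℂ) • gadcN γ ν n (rk u u) + ((γ * (1 - ν) : ℝ) : ℂ) • gadcN γ ν n (rk v v))
        ≤ ((1 - γ * ν) * x + γ * (1 - ν) * y) ^ 2 / (1 - s) := by
      have := mul_le_mul_of_nonneg_left n00 (one_div_nonneg.mpr hs10.le)
      refine this.trans (le_of_eq ?_)
      ring
    have t2 : 1 / s * nq s n (((γ * ν : ℝ) : ℂ) • gadcN γ ν n (rk u u) + ((1 - γ + γ * ν : ℝ) : ℂ) • gadcN γ ν n (rk v v))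
        ≤ (γ * ν * x + (1 - γ + γ * ν) * y) ^ 2 / s := by
      have := mul_le_mul_of_nonneg_left n11 (one_div_nonneg.mpr hs0.le)
      refine this.trans (le_of_eq ?_)
      ring
    have t3 := mul_le_mul_of_nonneg_left s01 hsq
    have t4 := mul_le_mul_of_nonneg_left s10 hsq
    have total : 1 / (1 - s) * nq s n (((1 - γ * ν : ℝ) : ℂ) • gadcN γ ν n (rk u u) + ((γ * (1 - ν) : ℝ) : ℂ) • gadcN γ ν n (rk v v))
        + 1 / Real.sqrt (s * (1 - s)) * nq s n (((β : ℝ) : ℂ) • gadcN γ ν n (rk u v))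
        + (1 / Real.sqrt (s * (1 - s)) * nq s n (((β : ℝ) : ℂ) • gadcN γ ν n (rk v u))
        + 1 / s * nq s n (((γ * ν : ℝ) : ℂ) • gadcN γ ν n (rk u u) + ((1 - γ + γ * ν : ℝ) : ℂ) • gadcN γ ν n (rk v v)))
        ≤ M * (x + y) ^ 2 := by
      refine le_trans ?_ bound
      have e : 2 * ((1 - γ) * (x * y)) / Real.sqrt (s * (1 - s)) =
          1 / Real.sqrt (s * (1 - s)) * ((1 - γ) * (x * y)) + 1 / Real.sqrt (s * (1 - s)) * ((1 - γ) * (x * y)) := by ring
      rw [e]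
      linarith [t1, t2, t3, t4]
    refine le_trans total ?_
    -- norms
    set Nu := ∑ a, Complex.normSq (u a) with hNu
    set Nv := ∑ a, Complex.normSq (v a) with hNv
    have hNu0 : 0 ≤ Nu := Finset.sum_nonneg fun _ _ => Complex.normSq_nonneg _
    have hNv0 : 0 ≤ Nv := Finset.sum_nonneg fun _ _ => Complex.normSq_nonneg _
    have hN : ∑ a, Complex.normSq (ψ a) = Nu + Nv := by
      rw [sum_cons, Fin.sum_univ_two]
    rw [hN]
    set r := Real.sqrt (M ^ n) with hr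
    have hr0 : 0 ≤ r := Real.sqrt_nonneg _
    have hr2 : r ^ 2 = M ^ n := Real.sq_sqrt (pow_nonneg hM0 n)
    have hxr : x ≤ r * Nu := by
      rw [hx, Real.sqrt_le_iff]
      refine ⟨mul_nonneg hr0 hNu0, ?_⟩
      rw [mul_pow, hr2]
      exact ih u
    have hyr : y ≤ r * Nv := by
      rw [hy, Real.sqrt_le_iff]
      refine ⟨mul_nonneg hr0 hNv0, ?_⟩
      rw [mul_pow, hr2]
      exact ih v
    have hxy : (x + y) ^ 2 ≤ (r * (Nu + Nv)) ^ 2 := by
      refine pow_le_pow_left₀ (add_nonneg hx0 hy0) ?_ 2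
      rw [mul_add]
      linarith
    rw [mul_pow, hr2] at hxy
    calc M * (x + y) ^ 2 ≤ M * (M ^ n * (Nu + Nv) ^ 2) := mul_le_mul_of_nonneg_left hxy hM0
      _ = M ^ (n + 1) * (Nu + Nv) ^ 2 := by ring

lemma nq_sum_le {s : ℝ} (hs0 : 0 < s) (hs1 : s < 1) (n : ℕ) {ι : Type*} (t : Finset ι)
    (X : ι → Matrix (Qb n) (Qb n) ℂ) :
    Real.sqrt (nq s n (∑ i ∈ t, X i)) ≤ ∑ i ∈ t, Real.sqrt (nq s n (X i)) := by
  classical
  induction t using Finset.induction_on with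
  | empty =>
    simp [nq]
  | insert i t hi ih =>
    rw [Finset.sum_insert hi, Finset.sum_insert hi]
    have h := nq_add_le hs0 hs1 n (X i) (∑ j ∈ t, X j)
    have h2 : Real.sqrt (nq s n (X i + ∑ j ∈ t, X j)) ≤
        Real.sqrt (nq s n (X i)) + Real.sqrt (nq s n (∑ j ∈ t, X j)) := by
      rw [Real.sqrt_le_iff]
      exact ⟨add_nonneg (Real.sqrt_nonneg _) (Real.sqrt_nonneg _), h⟩
    linarith

lemma gadcN_sum (n : ℕ) {ι : Type*} [Fintype ι] (X : ι → Matrix (Qb n) (Qb n) ℂ) :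
    gadcN γ ν n (∑ i, X i) = ∑ i, gadcN γ ν n (X i) := by
  ext x y
  simp only [gadcN, Matrix.of_apply, Matrix.sum_apply, Finset.mul_sum]
  calc _ = ∑ a : Qb n, ∑ i, ∑ b : Qb n, (∏ j, coef γ ν (x j) (y j) (a j) (b j)) * X i a b :=
        Finset.sum_congr rfl fun a _ => Finset.sum_comm
    _ = _ := Finset.sum_comm

/-- Spectral expansion in entries. -/
lemma spec_apply {κ : Type*} [Fintype κ] [DecidableEq κ] {T : Matrix κ κ ℂ} (h : T.IsHermitian)
    (x y : κ) :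
    T x y = ∑ i, ((h.eigenvalues i : ℝ) : ℂ) * (h.eigenvectorUnitary : Matrix κ κ ℂ) x i *
      conj ((h.eigenvectorUnitary : Matrix κ κ ℂ) y i) := by
  conv_lhs => rw [h.spectral_theorem]
  simp [Unitary.conjStarAlgAut_apply, Matrix.mul_apply, Matrix.diagonal_apply, Matrix.star_apply]
  refine Finset.sum_congr rfl fun i _ => ?_
  ring

lemma unit_row {κ : Type*} [Fintype κ] [DecidableEq κ] (U : Matrix.unitaryGroup κ ℂ) (x : κ) :
    ∑ i, Complex.normSq ((U : Matrix κ κ ℂ) x i) = 1 := by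
  have h := congrFun (congrFun (Matrix.mem_unitaryGroup_iff.mp U.2) x) x
  simp only [Matrix.mul_apply, Matrix.star_apply, Matrix.one_apply_eq] at h
  have h2 : ∑ i, ((Complex.normSq ((U : Matrix κ κ ℂ) x i) : ℝ) : ℂ) = 1 := by
    rw [← h]
    refine Finset.sum_congr rfl fun i _ => ?_
    rw [← Complex.mul_conj]
    rfl
  exact_mod_cast h2

lemma unit_col {κ : Type*} [Fintype κ] [DecidableEq κ] (U : Matrix.unitaryGroup κ ℂ) (i : κ) :
    ∑ x, Complex.normSq ((U : Matrix κ κ ℂ) x i) = 1 := by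
  have h := congrFun (congrFun (Matrix.mem_unitaryGroup_iff'.mp U.2) i) i
  simp only [Matrix.mul_apply, Matrix.star_apply, Matrix.one_apply_eq] at h
  have h2 : ∑ x, ((Complex.normSq ((U : Matrix κ κ ℂ) x i) : ℝ) : ℂ) = 1 := by
    rw [← h]
    refine Finset.sum_congr rfl fun x _ => ?_
    rw [Complex.normSq_eq_conj_mul_self]
    rfl
  exact_mod_cast h2

open scoped ComplexOrder in
/-- Mixed states: multiplicativity of the weighted norm. -/
theorem mult_mixed (hγ0 : 0 ≤ γ) (hγ1 : γ ≤ 1) (hν0 : 0 ≤ ν) (hν1 : ν ≤ 1) {s M : ℝ}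
    (hs0 : 0 < s) (hs1 : s < 1) (hM : ∀ q, 0 ≤ q → q ≤ 1 → W γ ν s q ≤ M) (n : ℕ)
    (ρ : Matrix (Qb n) (Qb n) ℂ) (hρ : ρ.PosSemidef) (htr : ρ.trace = 1) :
    nq s n (gadcN γ ν n ρ) ≤ M ^ n := by
  have hM0 : 0 ≤ M := (W_nonneg (ν := ν) hγ1 hs0 hs1 le_rfl zero_le_one).trans (hM 0 le_rfl zero_le_one)
  have hH : ρ.IsHermitian := hρ.isHermitian
  set l := hH.eigenvalues with hl
  set U := hH.eigenvectorUnitary with hU
  have hl0 : ∀ i, 0 ≤ l i := hρ.eigenvalues_nonneg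
  have hl1 : ∑ i, l i = 1 := by
    have := hH.trace_eq_sum_eigenvalues
    rw [htr] at this
    have h2 : ((∑ i, l i : ℝ) : ℂ) = 1 := by
      push_cast
      exact this.symm
    exact_mod_cast h2
  set ψ : Qb n → Qb n → ℂ := fun i x => ((Real.sqrt (l i) : ℝ) : ℂ) * (U : Matrix _ _ ℂ) x i with hψ
  have hdec : ρ = ∑ i, rk (ψ i) (ψ i) := by
    ext x y
    rw [spec_apply hH x y, Matrix.sum_apply]
    refine Finset.sum_congr rfl fun i _ => ?_
    simp only [rk, Matrix.of_apply, hψ, map_mul, Complex.conj_ofReal]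
    have h2 : ((Real.sqrt (l i) : ℝ) : ℂ) * ((Real.sqrt (l i) : ℝ) : ℂ) = ((l i : ℝ) : ℂ) := by
      rw [← Complex.ofReal_mul, Real.mul_self_sqrt (hl0 i)]
    rw [← h2]
    ring
  have hnorm : ∀ i, ∑ a, Complex.normSq (ψ i a) = l i := by
    intro i
    simp only [hψ, Complex.normSq_mul, Complex.normSq_ofReal, Real.mul_self_sqrt (hl0 i)]
    rw [← Finset.mul_sum, unit_col U i, mul_one]
  set r := Real.sqrt (M ^ n) with hr
  have hr0 : 0 ≤ r := Real.sqrt_nonneg _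
  have hr2 : r ^ 2 = M ^ n := Real.sq_sqrt (pow_nonneg hM0 n)
  have hone : ∀ i, Real.sqrt (nq s n (gadcN γ ν n (rk (ψ i) (ψ i)))) ≤ r * l i := by
    intro i
    rw [Real.sqrt_le_iff]
    refine ⟨mul_nonneg hr0 (hl0 i), ?_⟩
    rw [mul_pow, hr2, ← hnorm i]
    exact mult_rank_one hγ0 hγ1 hν0 hν1 hs0 hs1 hM n (ψ i)
  have htot : Real.sqrt (nq s n (gadcN γ ν n ρ)) ≤ r := by
    rw [hdec, gadcN_sum]
    refine (nq_sum_le hs0 hs1 n _ _).trans ?_
    calc _ ≤ ∑ i, r * l i := Finset.sum_le_sum fun i _ => hone i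
      _ = r := by rw [← Finset.mul_sum, hl1, mul_one]
  have := Real.sqrt_le_iff.mp htot
  rw [hr2] at this
  exact this.2

end

end Vale.Agent.P358h5
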