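import Mathlib
import Vale.Agent.P358h5.Mult

namespace Vale.Agent.P358h5
open Finset BigOperators Matrix
open scoped ComplexConjugate ComplexOrder

noncomputable section

variable {γ ν : ℝ}

lemma coef_tr (a b : Fin 2) : ∑ j, coef γ ν j j a b = if a = b then 1 else 0 := by
  obtain ⟨h1, h2, h3, h4, h5, h6, h7, h8, h9, h10, h11, h12, h13, h14, h15, h16⟩ := coef_table γ ν
  rw [Fin.sum_univ_two]
  fin_cases a <;> fin_cases b <;>
    simp only [Fin.zero_eta, Fin.mk_one, Fin.isValue, h1, h2, h3, h4, h7, h8, h9, h10] <;>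
    simp <;> ring

lemma sum_prod_coef (n : ℕ) (a b : Qb n) :
    ∑ x : Qb n, ∏ i, coef γ ν (x i) (x i) (a i) (b i) = if a = b then 1 else 0 := by
  have h := (Finset.prod_univ_sum (fun _ : Fin n => (Finset.univ : Finset (Fin 2)))
    (fun i j => coef γ ν j j (a i) (b i))).symm
  rw [Fintype.piFinset_univ] at h
  rw [h]
  simp only [coef_tr]
  by_cases hab : a = b
  · subst hab
    simp
  · obtain ⟨i, hi⟩ := Function.ne_iff.mp hab
    rw [if_neg hab]
    exact Finset.prod_eq_zero (Finset.mem_univ i) (if_neg hi)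

lemma gadcN_trace (n : ℕ) (X : Matrix (Qb n) (Qb n) ℂ) : (gadcN γ ν n X).trace = X.trace := by
  simp only [Matrix.trace, Matrix.diag_apply, gadcN, Matrix.of_apply]
  calc ∑ x : Qb n, ∑ a : Qb n, ∑ b : Qb n, (∏ i, coef γ ν (x i) (x i) (a i) (b i)) * X a b
      = ∑ a : Qb n, ∑ x : Qb n, ∑ b : Qb n, (∏ i, coef γ ν (x i) (x i) (a i) (b i)) * X a b :=
        Finset.sum_comm
    _ = ∑ a : Qb n, ∑ b : Qb n, ∑ x : Qb n, (∏ i, coef γ ν (x i) (x i) (a i) (b i)) * X a b :=
        Finset.sum_congr rfl fun a _ => Finset.sum_comm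
    _ = ∑ a : Qb n, ∑ b : Qb n, (if a = b then 1 else 0) * X a b := by
        refine Finset.sum_congr rfl fun a _ => Finset.sum_congr rfl fun b _ => ?_
        rw [← Finset.sum_mul, sum_prod_coef]
    _ = ∑ a : Qb n, X a a := by
        refine Finset.sum_congr rfl fun a _ => ?_
        simp

lemma gadcN_rk_psd (hγ0 : 0 ≤ γ) (hγ1 : γ ≤ 1) (hν0 : 0 ≤ ν) (hν1 : ν ≤ 1) (n : ℕ) (u : Qb n → ℂ) :
    (gadcN γ ν n (rk u u)).PosSemidef := by
  have h : gadcN γ ν n (rk u u) =
      (Matrix.of fun x J => ampl γ ν n u J x : Matrix (Qb n) (Fin n → Fin 4) ℂ) *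
        (Matrix.of fun x J => ampl γ ν n u J x : Matrix (Qb n) (Fin n → Fin 4) ℂ)ᴴ := by
    ext x y
    rw [gadcN_rk hγ0 hγ1 hν0 hν1, Matrix.mul_apply]
    rfl
  rw [h]
  exact Matrix.posSemidef_self_mul_conjTranspose _

lemma gadcN_psd (hγ0 : 0 ≤ γ) (hγ1 : γ ≤ 1) (hν0 : 0 ≤ ν) (hν1 : ν ≤ 1) (n : ℕ)
    (ρ : Matrix (Qb n) (Qb n) ℂ) (hρ : ρ.PosSemidef) : (gadcN γ ν n ρ).PosSemidef := by
  have hH : ρ.IsHermitian := hρ.isHermitian
  set l := hH.eigenvalues with hl
  set U := hH.eigenvectorUnitary with hU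
  have hl0 : ∀ i, 0 ≤ l i := hρ.eigenvalues_nonneg
  set ψ : Qb n → Qb n → ℂ := fun i x => ((Real.sqrt (l i) : ℝ) : ℂ) * (U : Matrix _ _ ℂ) x i with hψ
  have hdec : ρ = ∑ i, rk (ψ i) (ψ i) := by
    ext x y
    rw [spec_apply hH x y, Matrix.sum_apply]
    refine Finset.sum_congr rfl fun i _ => ?_
    simp only [rk, Matrix.of_apply, hψ, map_mul, Complex.conj_ofReal]
    have h2 : ((Real.sqrt (l i) : ℝ) : ℂ) * ((Real.sqrt (l i) : ℝ) : ℂ) = ((l i : ℝ) : ℂ) := by
      rw [← Complex.ofReal_mul, Real.mul_self_sqrt (hl0 i)]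
    rw [← h2]
    ring
  rw [hdec, gadcN_sum]
  exact Matrix.posSemidef_sum _ fun i _ => gadcN_rk_psd hγ0 hγ1 hν0 hν1 n (ψ i)

/-- The two entropic bounds for a density matrix. -/
lemma dens_bounds {κ : Type*} [Fintype κ] [DecidableEq κ] (T : Matrix κ κ ℂ) (hT : T.PosSemidef)
    (htr : T.trace = 1) (σ : κ → ℝ) (hσ : ∀ x, 0 < σ x) (hσ1 : ∑ x, σ x = 1)
    (w : κ → ℝ) (hw : ∀ x, 0 < w x) (hwσ : ∀ x, 2 * Real.log (w x) = - Real.log (σ x)) :
    (∑ i, Real.negMulLog (hT.isHermitian.eigenvalues i) ≤ - ∑ x, (T x x).re * Real.log (σ x)) ∧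
    (- ∑ x, (T x x).re * Real.log (σ x) - ∑ i, Real.negMulLog (hT.isHermitian.eigenvalues i) ≤
      Real.log (∑ x, ∑ y, w x * w y * Complex.normSq (T x y))) := by
  have hH : T.IsHermitian := hT.isHermitian
  set l := hH.eigenvalues with hl
  set U := hH.eigenvectorUnitary with hU
  have hl0 : ∀ i, 0 ≤ l i := hT.eigenvalues_nonneg
  have hl1 : ∑ i, l i = 1 := by
    have := hH.trace_eq_sum_eigenvalues
    rw [htr] at this
    have h2 : ((∑ i, l i : ℝ) : ℂ) = 1 := by
      push_cast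
      exact this.symm
    exact_mod_cast h2
  have hcol := unit_col U
  have hrow := unit_row U
  have hdiag : ∀ x, (T x x).re = ∑ i, l i * Complex.normSq ((U : Matrix κ κ ℂ) x i) := by
    intro x
    rw [spec_apply hH x x, Complex.re_sum]
    refine Finset.sum_congr rfl fun i _ => ?_
    rw [mul_assoc, Complex.mul_conj, ← Complex.ofReal_mul, Complex.ofReal_re]
  have hS : ∑ i, Real.negMulLog (l i) = - ∑ i, l i * Real.log (l i) := by
    rw [← Finset.sum_neg_distrib]
    refine Finset.sum_congr rfl fun i _ => ?_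
    simp [Real.negMulLog]
  have hK := klein_bound (fun x i => (U : Matrix κ κ ℂ) x i) l hl0 hl1 hcol hrow σ hσ hσ1
  have hR := renyi_bound (fun x i => (U : Matrix κ κ ℂ) x i) l hl0 hl1 hcol w hw
  have hTe : ∀ x y, ∑ i, ((l i : ℝ) : ℂ) * (U : Matrix κ κ ℂ) x i * conj ((U : Matrix κ κ ℂ) y i) = T x y :=
    fun x y => (spec_apply hH x y).symm
  simp only [hTe] at hR
  simp only [hdiag]
  rw [hS]
  constructor
  · linarith
  · have h2 : 2 * ∑ x, (∑ i, l i * Complex.normSq ((U : Matrix κ κ ℂ) x i)) * Real.log (w x) =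
        - ∑ x, (∑ i, l i * Complex.normSq ((U : Matrix κ κ ℂ) x i)) * Real.log (σ x) := by
      rw [Finset.mul_sum, ← Finset.sum_neg_distrib]
      refine Finset.sum_congr rfl fun x _ => ?_
      have := hwσ x
      linear_combination (∑ i, l i * Complex.normSq ((U : Matrix κ κ ℂ) x i)) * this
    linarith

lemma sg_sum {s : ℝ} (n : ℕ) : ∑ x, sg s n x = 1 := by
  induction n with
  | zero => simp [sg]
  | succ n ih =>
    rw [sum_cons, Fin.sum_univ_two]
    have h : ∀ x₀ (x : Qb n), sg s (n + 1) (Fin.cons x₀ x) = om s x₀ * sg s n x := by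
      intro x₀ x
      simp only [sg]
      rw [Fin.prod_univ_succ]
      simp
    simp only [h, ← Finset.mul_sum, ih]
    simp [om]

lemma wf_log {s : ℝ} (hs0 : 0 < s) (hs1 : s < 1) (n : ℕ) (x : Qb n) :
    2 * Real.log (wf s n x) = - Real.log (sg s n x) := by
  simp only [wf]
  rw [Real.log_inv, Real.log_sqrt (sg_pos hs0 hs1 n x).le]
  ring

lemma nq_pos {s : ℝ} (hs0 : 0 < s) (hs1 : s < 1) (n : ℕ) (T : Matrix (Qb n) (Qb n) ℂ)
    (htr : T.trace = 1) : 0 < nq s n T := by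
  have hex : ∃ x, T x x ≠ 0 := by
    by_contra hcon
    push Not at hcon
    have : T.trace = 0 := by
      simp only [Matrix.trace, Matrix.diag_apply]
      exact Finset.sum_eq_zero fun x _ => hcon x
    rw [this] at htr
    exact zero_ne_one htr
  obtain ⟨x, hx⟩ := hex
  have hwp := wf_pos hs0 hs1 n
  have h1 : 0 < ∑ y, wf s n x * wf s n y * Complex.normSq (T x y) :=
    Finset.sum_pos' (fun y _ => mul_nonneg (mul_nonneg (hwp x).le (hwp y).le) (Complex.normSq_nonneg _))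
      ⟨x, Finset.mem_univ _, mul_pos (mul_pos (hwp x) (hwp x)) (Complex.normSq_pos.mpr hx)⟩
  exact Finset.sum_pos' (fun x _ => Finset.sum_nonneg fun y _ =>
    mul_nonneg (mul_nonneg (hwp x).le (hwp y).le) (Complex.normSq_nonneg _)) ⟨x, Finset.mem_univ _, h1⟩

/-- Main bound: the Holevo quantity of the `n`-fold channel is at most `n log₂ M`. -/
theorem holevo_bound (hγ0 : 0 ≤ γ) (hγ1 : γ ≤ 1) (hν0 : 0 ≤ ν) (hν1 : ν ≤ 1) {s M : ℝ}
    (hs0 : 0 < s) (hs1 : s < 1) (hM : ∀ q, 0 ≤ q → q ≤ 1 → W γ ν s q ≤ M) (n : ℕ)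
    {ι : Type*} [Fintype ι] (p : ι → ℝ) (hp0 : ∀ a, 0 ≤ p a) (hp1 : ∑ a, p a = 1)
    (ρ : ι → Matrix (Qb n) (Qb n) ℂ) (hρ : ∀ a, (ρ a).PosSemidef) (htr : ∀ a, (ρ a).trace = 1) :
    holevoN γ ν n p ρ ≤ n * Real.logb 2 M := by
  classical
  set T : ι → Matrix (Qb n) (Qb n) ℂ := fun a => gadcN γ ν n (ρ a) with hTdef
  have hT : ∀ a, (T a).PosSemidef := fun a => gadcN_psd hγ0 hγ1 hν0 hν1 n (ρ a) (hρ a)
  have hTtr : ∀ a, (T a).trace = 1 := fun a => by rw [hTdef]; simp only; rw [gadcN_trace, htr a]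
  set B : Matrix (Qb n) (Qb n) ℂ := ∑ a, ((p a : ℝ) : ℂ) • T a with hB
  have hBpsd : B.PosSemidef :=
    Matrix.posSemidef_sum _ fun a _ => (hT a).smul (Complex.zero_le_real.mpr (hp0 a))
  have hBtr : B.trace = 1 := by
    rw [hB, Matrix.trace_sum]
    simp only [Matrix.trace_smul, hTtr, smul_eq_mul, mul_one]
    rw [← Complex.ofReal_sum, hp1, Complex.ofReal_one]
  have hσ := fun x => sg_pos hs0 hs1 n x
  have hσ1 : ∑ x, sg s n x = 1 := sg_sum n
  have hw := fun x => wf_pos hs0 hs1 n x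
  have hwσ := fun x => wf_log hs0 hs1 n x
  have hlog2 : 0 < Real.log 2 := Real.log_pos (by norm_num)
  -- entropies
  have eB : vnEntropy B = (∑ i, Real.negMulLog (hBpsd.isHermitian.eigenvalues i)) / Real.log 2 := by
    rw [vnEntropy, dif_pos hBpsd.isHermitian, Finset.sum_div]
  have eT : ∀ a, vnEntropy (T a) = (∑ i, Real.negMulLog ((hT a).isHermitian.eigenvalues i)) / Real.log 2 := by
    intro a
    rw [vnEntropy, dif_pos (hT a).isHermitian, Finset.sum_div]
  have hB1 := (dens_bounds B hBpsd hBtr (sg s n) hσ hσ1 (wf s n) hw hwσ).1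
  have hBdiag : ∀ x, (B x x).re = ∑ a, p a * (T a x x).re := by
    intro x
    rw [hB, Matrix.sum_apply, Complex.re_sum]
    refine Finset.sum_congr rfl fun a _ => ?_
    simp
  have hBsum : ∑ x, (B x x).re * Real.log (sg s n x) =
      ∑ a, p a * ∑ x, (T a x x).re * Real.log (sg s n x) := by
    simp only [hBdiag, Finset.sum_mul, Finset.mul_sum]
    rw [Finset.sum_comm]
    exact Finset.sum_congr rfl fun a _ => Finset.sum_congr rfl fun x _ => by ring
  have hM0 : 0 ≤ M := (W_nonneg (ν := ν) hγ1 hs0 hs1 le_rfl zero_le_one).trans (hM 0 le_rfl zero_le_one)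
  have hTa : ∀ a, - ∑ x, (T a x x).re * Real.log (sg s n x) -
      ∑ i, Real.negMulLog ((hT a).isHermitian.eigenvalues i) ≤ n * Real.log M := by
    intro a
    have h2 := (dens_bounds (T a) (hT a) (hTtr a) (sg s n) hσ hσ1 (wf s n) hw hwσ).2
    have h3 : ∑ x, ∑ y, wf s n x * wf s n y * Complex.normSq (T a x y) = nq s n (T a) := rfl
    rw [h3] at h2
    refine h2.trans ?_
    have hpos := nq_pos hs0 hs1 n (T a) (hTtr a)
    have hle := mult_mixed hγ0 hγ1 hν0 hν1 hs0 hs1 hM n (ρ a) (hρ a) (htr a)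
    have := Real.log_le_log hpos hle
    rwa [Real.log_pow] at this
  have hfinal : (∑ i, Real.negMulLog (hBpsd.isHermitian.eigenvalues i)) -
      ∑ a, p a * ∑ i, Real.negMulLog ((hT a).isHermitian.eigenvalues i) ≤ n * Real.log M := by
    have h4 : ∑ a, p a * (- ∑ x, (T a x x).re * Real.log (sg s n x) -
        ∑ i, Real.negMulLog ((hT a).isHermitian.eigenvalues i)) ≤ ∑ a, p a * (n * Real.log M) :=
      Finset.sum_le_sum fun a _ => mul_le_mul_of_nonneg_left (hTa a) (hp0 a)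
    rw [← Finset.sum_mul, hp1, one_mul] at h4
    have h5 : ∑ a, p a * (- ∑ x, (T a x x).re * Real.log (sg s n x) -
        ∑ i, Real.negMulLog ((hT a).isHermitian.eigenvalues i)) =
        - ∑ a, p a * ∑ x, (T a x x).re * Real.log (sg s n x) -
          ∑ a, p a * ∑ i, Real.negMulLog ((hT a).isHermitian.eigenvalues i) := by
      rw [← Finset.sum_neg_distrib, ← Finset.sum_sub_distrib]
      exact Finset.sum_congr rfl fun a _ => by ring
    rw [h5] at h4
    rw [hBsum] at hB1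
    linarith
  have hgoal : holevoN γ ν n p ρ =
      ((∑ i, Real.negMulLog (hBpsd.isHermitian.eigenvalues i)) -
        ∑ a, p a * ∑ i, Real.negMulLog ((hT a).isHermitian.eigenvalues i)) / Real.log 2 := by
    have : holevoN γ ν n p ρ = vnEntropy B - ∑ a, p a * vnEntropy (T a) := rfl
    rw [this, eB]
    simp only [eT]
    have h6 : ∑ a, p a * ((∑ i, Real.negMulLog ((hT a).isHermitian.eigenvalues i)) / Real.log 2) =
        (∑ a, p a * ∑ i, Real.negMulLog ((hT a).isHermitian.eigenvalues i)) / Real.log 2 := by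
      rw [Finset.sum_div]
      exact Finset.sum_congr rfl fun a _ => by ring
    rw [h6, sub_div]
  rw [hgoal, Real.logb, ← mul_div_assoc]
  exact div_le_div_of_nonneg_right hfinal hlog2.le

end

end Vale.Agent.P358h5
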