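import Mathlib
import Vale.Agent.P358h5.Bound

namespace Vale.Agent.P358h5
open Finset BigOperators Matrix

noncomputable section

/-- The closed form of the Rényi-2 radius of amplitude damping. -/
def radiusForm (r : ℝ) : ℝ := (1 + r ^ 2 + 3 * r ^ 4 - r ^ 6) / (1 + r ^ 2)

lemma exists_r {γ : ℝ} (h0 : 0 < γ) (h1 : γ < 1) :
    ∃ r : ℝ, 0 < r ∧ r < 1 ∧ 2 * r ^ 3 = Real.sqrt (1 - γ) * (1 + r ^ 4) := by
  set β := Real.sqrt (1 - γ) with hβ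
  have hβ0 : 0 < β := Real.sqrt_pos.mpr (by linarith)
  have hβ1 : β < 1 := by
    rw [hβ, Real.sqrt_lt' one_pos]
    linarith
  have hc : ContinuousOn (fun r : ℝ => 2 * r ^ 3 - β * (1 + r ^ 4)) (Set.Icc 0 1) := by
    fun_prop
  have hiv := intermediate_value_Ioo (a := (0 : ℝ)) (b := 1) zero_le_one hc
  have hmem : (0 : ℝ) ∈ Set.Ioo ((fun r : ℝ => 2 * r ^ 3 - β * (1 + r ^ 4)) 0)
      ((fun r : ℝ => 2 * r ^ 3 - β * (1 + r ^ 4)) 1) := by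
    constructor
    · simp only
      nlinarith
    · simp only
      nlinarith
  obtain ⟨r, hr, hfr⟩ := hiv hmem
  refine ⟨r, hr.1, hr.2, ?_⟩
  simp only at hfr
  linarith

lemma W_closed {γ r : ℝ} (hr0 : 0 < r) (hr1 : r < 1) (h1 : γ < 1)
    (hr : 2 * r ^ 3 = Real.sqrt (1 - γ) * (1 + r ^ 4)) (q : ℝ) :
    W γ 0 (r ^ 4 / (1 + r ^ 4)) q = radiusForm r -
      (2 * (4 * r ^ 6 / (1 + r ^ 4) ^ 2) * (1 - r ^ 4) / r ^ 2) *
        (q - (1 + r ^ 4) / (2 * (1 + r ^ 2))) ^ 2 := by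
  have hD : 0 < 1 + r ^ 4 := by positivity
  have hE : 0 < 1 + r ^ 2 := by positivity
  have hβ : Real.sqrt (1 - γ) = 2 * r ^ 3 / (1 + r ^ 4) := by
    field_simp
    linarith
  have hB : 1 - γ = 4 * r ^ 6 / (1 + r ^ 4) ^ 2 := by
    have := Real.sq_sqrt (show 0 ≤ 1 - γ by linarith)
    rw [← this, hβ]
    field_simp
    ring
  have hs1 : 1 - r ^ 4 / (1 + r ^ 4) = 1 / (1 + r ^ 4) := by
    field_simp
    ring
  have hsq : Real.sqrt (r ^ 4 / (1 + r ^ 4) * (1 - r ^ 4 / (1 + r ^ 4))) = r ^ 2 / (1 + r ^ 4) := by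
    rw [hs1]
    have : r ^ 4 / (1 + r ^ 4) * (1 / (1 + r ^ 4)) = (r ^ 2 / (1 + r ^ 4)) ^ 2 := by
      field_simp
    rw [this, Real.sqrt_sq (by positivity)]
  unfold W radiusForm
  rw [hsq, hs1, hB]
  have hr2 : r ^ 2 ≠ 0 := by positivity
  simp only [mul_zero, add_zero]
  field_simp
  ring

lemma W_closed_le {γ r : ℝ} (hr0 : 0 < r) (hr1 : r < 1) (h1 : γ < 1)
    (hr : 2 * r ^ 3 = Real.sqrt (1 - γ) * (1 + r ^ 4)) (q : ℝ) :
    W γ 0 (r ^ 4 / (1 + r ^ 4)) q ≤ radiusForm r := by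
  rw [W_closed hr0 hr1 h1 hr q]
  have h4 : 0 ≤ 1 - r ^ 4 := by
    have : r ^ 4 ≤ 1 := pow_le_one₀ hr0.le hr1.le
    linarith
  have : 0 ≤ (2 * (4 * r ^ 6 / (1 + r ^ 4) ^ 2) * (1 - r ^ 4) / r ^ 2) *
        (q - (1 + r ^ 4) / (2 * (1 + r ^ 2))) ^ 2 := by positivity
  linarith

lemma radiusForm_lt {γ r : ℝ} (hr0 : 0 < r) (hr1 : r < 1)
    (hr : 2 * r ^ 3 = Real.sqrt (1 - γ) * (1 + r ^ 4)) :
    radiusForm r < 1 + Real.sqrt (1 - γ) := by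
  have hD : 0 < 1 + r ^ 4 := by positivity
  have hE : 0 < 1 + r ^ 2 := by positivity
  have hβ : Real.sqrt (1 - γ) = 2 * r ^ 3 / (1 + r ^ 4) := by
    field_simp
    linarith
  rw [hβ]
  unfold radiusForm
  have hQ : 0 < 2 - r + r ^ 2 + 2 * r ^ 3 + 2 * r ^ 4 - r ^ 5 - r ^ 6 := by
    have h5 : r ^ 5 ≤ r ^ 4 := pow_le_pow_of_le_one hr0.le hr1.le (by norm_num)
    have h6 : r ^ 6 ≤ r ^ 4 := pow_le_pow_of_le_one hr0.le hr1.le (by norm_num)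
    have h3 : 0 < r ^ 3 := by positivity
    have h2 : 0 < r ^ 2 := by positivity
    linarith
  have key : (1 + 2 * r ^ 3 / (1 + r ^ 4)) - (1 + r ^ 2 + 3 * r ^ 4 - r ^ 6) / (1 + r ^ 2) =
      r ^ 3 * (1 - r) * (2 - r + r ^ 2 + 2 * r ^ 3 + 2 * r ^ 4 - r ^ 5 - r ^ 6) /
        ((1 + r ^ 4) * (1 + r ^ 2)) := by
    field_simp
    ring
  have hpos : 0 < r ^ 3 * (1 - r) * (2 - r + r ^ 2 + 2 * r ^ 3 + 2 * r ^ 4 - r ^ 5 - r ^ 6) /
        ((1 + r ^ 4) * (1 + r ^ 2)) := by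
    have h1r : 0 < 1 - r := by linarith
    positivity
  linarith

end

end Vale.Agent.P358h5
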